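import Mathlib

/-!
# P125 (alpha) : alternation count of two disjoint sets in a linear order

`IsAlt A B b l` : the list `l` is strictly increasing and its entries lie alternately in `A` and
`B`, the first one in `A` if `b = true`, in `B` if `b = false`.
`altLen A B` : the largest length of such a list.  `altSig A B` : `1` if the least element of
`A ∪ B` lies in `A`, `-1` otherwise.
-/

namespace Vale.Agent.P125.A52

variable {α : Type*} [LinearOrder α]

/-- membership pattern: alternately in `A` and `B`, starting in `A` iff the flag is `true` -/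
def Pat (A B : Finset α) : Bool → List α → Prop
  | _, [] => True
  | true, x :: l => x ∈ A ∧ Pat A B false l
  | false, x :: l => x ∈ B ∧ Pat A B true l

/-- strictly increasing alternating list -/
def IsAlt (A B : Finset α) (b : Bool) (l : List α) : Prop :=
  l.Pairwise (· < ·) ∧ Pat A B b l

theorem Pat.mono {A B A' B' : Finset α} (hA : A' ⊆ A) (hB : B' ⊆ B) :
    ∀ (b : Bool) (l : List α), Pat A' B' b l → Pat A B b l
  | _, [], _ => trivial
  | true, _ :: l, h => ⟨hA h.1, Pat.mono hA hB false l h.2⟩
  | false, _ :: l, h => ⟨hB h.1, Pat.mono hA hB true l h.2⟩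

theorem Pat.swap {A B : Finset α} : ∀ (b : Bool) (l : List α), Pat A B b l → Pat B A (!b) l
  | _, [], _ => by
      unfold Pat
      trivial
  | true, _ :: l, h => ⟨h.1, Pat.swap false l h.2⟩
  | false, _ :: l, h => ⟨h.1, Pat.swap true l h.2⟩

theorem Pat.subset {A B : Finset α} : ∀ (b : Bool) (l : List α), Pat A B b l → ∀ x ∈ l, x ∈ A ∪ B
  | _, [], _ => by
      intro x hx
      exact absurd hx (List.not_mem_nil)
  | true, y :: l, h => by
      intro x hx
      rcases List.mem_cons.1 hx with rfl | hx
      · exact Finset.mem_union_left _ h.1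
      · exact Pat.subset false l h.2 x hx
  | false, y :: l, h => by
      intro x hx
      rcases List.mem_cons.1 hx with rfl | hx
      · exact Finset.mem_union_right _ h.1
      · exact Pat.subset true l h.2 x hx

theorem IsAlt.length_le {A B : Finset α} {b : Bool} {l : List α} (h : IsAlt A B b l) :
    l.length ≤ (A ∪ B).card := by
  have hnd : l.Nodup := h.1.imp (fun hab => ne_of_lt hab)
  have hsub : l.toFinset ⊆ A ∪ B := by
    intro x hx
    exact Pat.subset b l h.2 x (List.mem_toFinset.1 hx)
  calc l.length = l.toFinset.card := (List.toFinset_card_of_nodup hnd).symm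
    _ ≤ (A ∪ B).card := Finset.card_le_card hsub

open Classical in
/-- the largest length of an alternating list -/
noncomputable def altLen (A B : Finset α) : ℕ :=
  Nat.findGreatest (fun p => ∃ (b : Bool) (l : List α), IsAlt A B b l ∧ l.length = p) (A ∪ B).card

theorem le_altLen {A B : Finset α} {b : Bool} {l : List α} (h : IsAlt A B b l) :
    l.length ≤ altLen A B := by
  classical
  unfold altLen
  exact Nat.le_findGreatest h.length_le ⟨b, l, h, rfl⟩

theorem exists_altLen (A B : Finset α) :
    ∃ (b : Bool) (l : List α), IsAlt A B b l ∧ l.length = altLen A B := by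
  classical
  unfold altLen
  refine Nat.findGreatest_spec (P := fun p => ∃ (b : Bool) (l : List α), IsAlt A B b l ∧ l.length = p)
    (Nat.zero_le _) ⟨true, [], ⟨List.Pairwise.nil, trivial⟩, rfl⟩

/-- monotonicity -/
theorem altLen_mono {A B A' B' : Finset α} (hA : A' ⊆ A) (hB : B' ⊆ B) :
    altLen A' B' ≤ altLen A B := by
  obtain ⟨b, l, h, hl⟩ := exists_altLen A' B'
  rw [← hl]
  exact le_altLen ⟨h.1, Pat.mono hA hB b l h.2⟩

/-- symmetry -/
theorem altLen_swap (A B : Finset α) : altLen A B = altLen B A := by
  apply le_antisymm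
  · obtain ⟨b, l, h, hl⟩ := exists_altLen A B
    rw [← hl]
    exact le_altLen ⟨h.1, Pat.swap b l h.2⟩
  · obtain ⟨b, l, h, hl⟩ := exists_altLen B A
    rw [← hl]
    exact le_altLen ⟨h.1, Pat.swap b l h.2⟩

theorem altLen_pos {A B : Finset α} (h : (A ∪ B).Nonempty) : 1 ≤ altLen A B := by
  obtain ⟨x, hx⟩ := h
  rcases Finset.mem_union.1 hx with hx | hx
  · exact le_altLen (b := true) (l := [x]) ⟨List.pairwise_singleton _ _, hx, trivial⟩
  · exact le_altLen (b := false) (l := [x]) ⟨List.pairwise_singleton _ _, hx, trivial⟩

open Classical in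
/-- the first letter: `1` if the least element of `A ∪ B` lies in `A`, else `-1` -/
noncomputable def altSig (A B : Finset α) : ℤ :=
  if h : (A ∪ B).Nonempty then (if (A ∪ B).min' h ∈ A then 1 else -1) else 1

theorem altSig_sq (A B : Finset α) : altSig A B * altSig A B = 1 := by
  unfold altSig
  split_ifs <;> norm_num

theorem altSig_eq_or (A B : Finset α) : altSig A B = 1 ∨ altSig A B = -1 := by
  unfold altSig
  split_ifs <;> simp

theorem altSig_swap {A B : Finset α} (hd : Disjoint A B) (h : (A ∪ B).Nonempty) :
    altSig B A = - altSig A B := by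
  have h' : (B ∪ A).Nonempty := by rwa [Finset.union_comm]
  have e : (B ∪ A).min' h' = (A ∪ B).min' h := by
    congr 1
    exact Finset.union_comm _ _
  unfold altSig
  rw [dif_pos h, dif_pos h', e]
  have hm := Finset.min'_mem (A ∪ B) h
  by_cases hA : (A ∪ B).min' h ∈ A
  · have hB : (A ∪ B).min' h ∉ B := fun hB => (Finset.disjoint_left.1 hd) hA hB
    rw [if_pos hA, if_neg hB]
  · have hB : (A ∪ B).min' h ∈ B := (Finset.mem_union.1 hm).resolve_left hA
    rw [if_neg hA, if_pos hB]
    norm_num

/-- prepending an element below the head -/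
private theorem isAlt_cons {A B : Finset α} {b : Bool} {x y : α} {l : List α}
    (h : IsAlt A B b (y :: l)) (hxy : x < y) (hx : if b then x ∈ B else x ∈ A) :
    IsAlt A B (!b) (x :: y :: l) := by
  refine ⟨List.pairwise_cons.2 ⟨?_, h.1⟩, ?_⟩
  · intro z hz
    rcases List.mem_cons.1 hz with rfl | hz
    · exact hxy
    · exact hxy.trans ((List.pairwise_cons.1 h.1).1 z hz)
  · cases b
    · exact ⟨hx, h.2⟩
    · exact ⟨hx, h.2⟩

/-- a longest alternating list starts with the letter of the least element -/
theorem longest_head {A B : Finset α} (hd : Disjoint A B) (h : (A ∪ B).Nonempty) :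
    ∃ (y : α) (l : List α), IsAlt A B (decide ((A ∪ B).min' h ∈ A)) (y :: l) ∧
      (y :: l).length = altLen A B := by
  obtain ⟨b, l, hl, hlen⟩ := exists_altLen A B
  have hpos := altLen_pos h
  cases l with
  | nil => simp at hlen; omega
  | cons y l =>
    refine ⟨y, l, ?_, hlen⟩
    set m := (A ∪ B).min' h with hm
    have hmm : m ∈ A ∪ B := Finset.min'_mem _ h
    have hy : y ∈ A ∪ B := Pat.subset b _ hl.2 y (List.mem_cons_self)
    have hmy : m ≤ y := Finset.min'_le _ _ hy
    by_cases hA : m ∈ A
    · rw [decide_eq_true hA]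
      cases b
      · -- the list starts in `B`, prepend `m`
        exfalso
        have hyB : y ∈ B := hl.2.1
        have hne : m ≠ y := fun e => (Finset.disjoint_left.1 hd) hA (e ▸ hyB)
        have := le_altLen (isAlt_cons hl (lt_of_le_of_ne hmy hne) (by simpa using hA))
        simp only [List.length_cons] at this hlen
        omega
      · exact hl
    · rw [decide_eq_false hA]
      have hB : m ∈ B := (Finset.mem_union.1 hmm).resolve_left hA
      cases b
      · exact hl
      · exfalso
        have hyA : y ∈ A := hl.2.1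
        have hne : m ≠ y := fun e => (Finset.disjoint_left.1 hd) hyA (e ▸ hB)
        have := le_altLen (isAlt_cons hl (lt_of_le_of_ne hmy hne) (by simpa using hB))
        simp only [List.length_cons] at this hlen
        omega

/-- COMBINATORIAL LEMMA (d): smaller sets with the same alternation count have the same first
letter -/
theorem altSig_eq_of_altLen_eq {A B A' B' : Finset α} (hA : A' ⊆ A) (hB : B' ⊆ B)
    (hd : Disjoint A B) (hne : (A' ∪ B').Nonempty) (hc : altLen A' B' = altLen A B) :
    altSig A' B' = altSig A B := by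
  have hd' : Disjoint A' B' := Finset.disjoint_of_subset_left hA (Finset.disjoint_of_subset_right hB hd)
  have hne2 : (A ∪ B).Nonempty := hne.mono (Finset.union_subset_union hA hB)
  obtain ⟨y, l, hl, hlen⟩ := longest_head hd' hne
  set m' := (A' ∪ B').min' hne with hm'
  set m := (A ∪ B).min' hne2 with hm
  have hmm : m ∈ A ∪ B := Finset.min'_mem _ hne2
  have hl2 : IsAlt A B (decide (m' ∈ A')) (y :: l) := ⟨hl.1, Pat.mono hA hB _ _ hl.2⟩
  have hy : y ∈ A ∪ B := Pat.subset _ _ hl2.2 y (List.mem_cons_self)
  have hmy : m ≤ y := Finset.min'_le _ _ hy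
  unfold altSig
  rw [dif_pos hne, dif_pos hne2]
  by_cases h1 : m' ∈ A'
  · rw [if_pos h1]
    by_cases h2 : m ∈ A
    · rw [if_pos h2]
    · exfalso
      have hmB : m ∈ B := (Finset.mem_union.1 hmm).resolve_left h2
      rw [decide_eq_true h1] at hl2
      have hyA : y ∈ A := hl2.2.1
      have hne' : m ≠ y := fun e => (Finset.disjoint_left.1 hd) hyA (e ▸ hmB)
      have := le_altLen (isAlt_cons hl2 (lt_of_le_of_ne hmy hne') (by simpa using hmB))
      simp only [List.length_cons] at this hlen
      omega
  · rw [if_neg h1]
    by_cases h2 : m ∈ A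
    · exfalso
      rw [decide_eq_false h1] at hl2
      have hyB : y ∈ B := hl2.2.1
      have hne' : m ≠ y := fun e => (Finset.disjoint_left.1 hd) h2 (e ▸ hyB)
      have := le_altLen (isAlt_cons hl2 (lt_of_le_of_ne hmy hne') (by simpa using h2))
      simp only [List.length_cons] at this hlen
      omega
    · rw [if_neg h2]

end Vale.Agent.P125.A52
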