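import Mathlib

/-!
# P125 (alpha): the pointwise deficit inequality (file 5 of the finitary plan)

`a` is the list of the numbers `N_r` along a path, `T` the norm of the sum along the path.
-/

namespace Vale.Agent.P125.A52

/-- the sum of the squares of the entries of a list -/
def sq2 (a : List ℝ) : ℝ := (a.map (fun x => x ^ 2)).sum

lemma sq2_nil : sq2 [] = 0 := rfl

lemma sq2_cons (x : ℝ) (a : List ℝ) : sq2 (x :: a) = x ^ 2 + sq2 a := by
  simp [sq2]

lemma sq2_nonneg (a : List ℝ) : 0 ≤ sq2 a := by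
  induction a with
  | nil => simp [sq2]
  | cons x a ih => rw [sq2_cons]; positivity

lemma sum_sq_shift (a : List ℝ) (μ : ℝ) :
    (a.map (fun x => (x - μ) ^ 2)).sum = sq2 a - 2 * μ * a.sum + a.length * μ ^ 2 := by
  induction a with
  | nil => simp [sq2]
  | cons x a ih =>
    rw [sq2_cons]
    simp only [List.map_cons, List.sum_cons, List.length_cons, ih]
    push_cast
    ring

lemma len_mul_le_sum (a : List ℝ) (mn : ℝ) (h : ∀ x ∈ a, mn ≤ x) :
    (a.length : ℝ) * mn ≤ a.sum := by
  induction a with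
  | nil => simp
  | cons x a ih =>
    have h1 := h x (by simp)
    have h2 := ih (fun y hy => h y (by simp [hy]))
    simp only [List.length_cons, List.sum_cons]
    push_cast
    linarith

lemma sq2_le_len_mul (a : List ℝ) (mx : ℝ) (h0 : ∀ x ∈ a, 0 ≤ x) (h : ∀ x ∈ a, x ≤ mx) :
    sq2 a ≤ (a.length : ℝ) * mx ^ 2 := by
  induction a with
  | nil => simp [sq2]
  | cons x a ih =>
    have h1 := h x (by simp)
    have h1' := h0 x (by simp)
    have h2 := ih (fun y hy => h0 y (by simp [hy])) (fun y hy => h y (by simp [hy]))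
    rw [sq2_cons]
    simp only [List.length_cons]
    push_cast
    nlinarith

/-- two different entries of a list contribute separately to a sum of nonnegative terms -/
lemma two_le_sum (a : List ℝ) (g : ℝ → ℝ) (hg : ∀ x, 0 ≤ g x) (u v : ℝ) (hu : u ∈ a) (hv : v ∈ a)
    (huv : u ≠ v) : g u + g v ≤ (a.map g).sum := by
  induction a with
  | nil => simp at hu
  | cons x a ih =>
    simp only [List.map_cons, List.sum_cons]
    have hs : ∀ w ∈ a, g w ≤ (a.map g).sum := by
      intro w hw
      refine List.single_le_sum ?_ _ (List.mem_map_of_mem hw)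
      intro y hy
      obtain ⟨z, _, rfl⟩ := List.mem_map.mp hy
      exact hg z
    rcases List.mem_cons.mp hu with rfl | hu'
    · rcases List.mem_cons.mp hv with rfl | hv'
      · exact absurd rfl huv
      · have := hs v hv'
        linarith
    · rcases List.mem_cons.mp hv with rfl | hv'
      · have := hs u hu'
        linarith
      · have := ih hu' hv'
        have := hg x
        linarith

/-- Cauchy-Schwarz with a remainder: the spread of the entries -/
lemma cs_spread (a : List ℝ) (u v : ℝ) (hu : u ∈ a) (hv : v ∈ a) :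
    (a.length : ℝ) * ((u - v) ^ 2 / 2) ≤ (a.length : ℝ) * sq2 a - a.sum ^ 2 := by
  have hL : 0 < (a.length : ℝ) := by
    have : 0 < a.length := List.length_pos_of_mem hu
    exact_mod_cast this
  set L : ℝ := (a.length : ℝ) with hLdef
  set μ : ℝ := a.sum / L with hμ
  have hid := sum_sq_shift a μ
  have hS : a.sum = L * μ := by
    rw [hμ]; field_simp
  have key : L * (a.map (fun x => (x - μ) ^ 2)).sum = L * sq2 a - a.sum ^ 2 := by
    rw [hid, hS]; ring
  rw [← key]
  refine mul_le_mul_of_nonneg_left ?_ hL.le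
  by_cases huv : u = v
  · subst huv
    have : 0 ≤ (a.map (fun x => (x - μ) ^ 2)).sum := by
      refine List.sum_nonneg ?_
      intro y hy
      obtain ⟨z, _, rfl⟩ := List.mem_map.mp hy
      positivity
    simpa using this
  · have h2 := two_le_sum a (fun x => (x - μ) ^ 2) (fun x => by positivity) u v hu hv huv
    nlinarith [sq_nonneg ((u - μ) + (v - μ))]

lemma cs_list (a : List ℝ) : a.sum ^ 2 ≤ (a.length : ℝ) * sq2 a := by
  cases a with
  | nil => simp [sq2]
  | cons x a =>
    have := cs_spread (x :: a) x x (by simp) (by simp)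
    simp only [sub_self] at this
    nlinarith

/-- **Pointwise deficit inequality.**  Either the deficit is at least a sixteenth of the sum of
the squares, or the path is good. -/
theorem deficit_pointwise (a : List ℝ) (mn mx T : ℝ) (hmn : mn ∈ a) (hmx : mx ∈ a)
    (hlo : ∀ x ∈ a, mn ≤ x) (hhi : ∀ x ∈ a, x ≤ mx) (h0 : 0 ≤ mn) (hT : |T| ≤ a.sum) :
    (1 / 16 : ℝ) * sq2 a ≤ (a.length : ℝ) * sq2 a - T ^ 2 ∨
      (0 < mn ∧ mx ≤ 2 * mn ∧ a.sum - |T| ≤ mn / 4) := by
  have hL : 0 < (a.length : ℝ) := by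
    have : 0 < a.length := List.length_pos_of_mem hmn
    exact_mod_cast this
  have hpos : ∀ x ∈ a, 0 ≤ x := fun x hx => h0.trans (hlo x hx)
  have hsq := sq2_le_len_mul a mx hpos hhi
  have hsum := len_mul_le_sum a mn hlo
  have hcs := cs_list a
  have hsp := cs_spread a mx mn hmx hmn
  have hTabs : T ^ 2 = |T| ^ 2 := (sq_abs T).symm
  have hT0 : 0 ≤ |T| := abs_nonneg T
  have hmx0 : 0 ≤ mx := hpos mx hmx
  have hTS : T ^ 2 ≤ a.sum ^ 2 := by
    rw [hTabs]; nlinarith
  by_cases h1 : mx ≤ 2 * mn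
  · by_cases h2 : a.sum - |T| ≤ mn / 4
    · by_cases h3 : 0 < mn
      · exact Or.inr ⟨h3, h1, h2⟩
      · left
        have hmn0 : mn = 0 := le_antisymm (not_lt.mp h3) h0
        have hmx00 : mx = 0 := le_antisymm (by linarith) hmx0
        rw [hmx00] at hsq
        have : sq2 a ≤ 0 := by simpa using hsq
        nlinarith [sq2_nonneg a]
    · left
      have h2 := not_le.mp h2
      -- `S ^ 2 - T ^ 2 = (S - |T|) (S + |T|) ≥ (mn / 4) (L mn)`
      have hA : mn / 4 * ((a.length : ℝ) * mn) ≤ (a.sum - |T|) * (a.sum + |T|) := by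
        have hLm : 0 ≤ (a.length : ℝ) * mn := by positivity
        have : mn / 4 * ((a.length : ℝ) * mn) ≤ (a.sum - |T|) * ((a.length : ℝ) * mn) :=
          mul_le_mul_of_nonneg_right h2.le hLm
        have h5 : (a.sum - |T|) * ((a.length : ℝ) * mn) ≤ (a.sum - |T|) * (a.sum + |T|) :=
          mul_le_mul_of_nonneg_left (by linarith) (by linarith)
        linarith
      have hB : (a.length : ℝ) * mx ^ 2 ≤ (a.length : ℝ) * (4 * mn ^ 2) :=
        mul_le_mul_of_nonneg_left (by nlinarith) hL.le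
      have hC : (a.sum - |T|) * (a.sum + |T|) = a.sum ^ 2 - T ^ 2 := by
        rw [hTabs]; ring
      nlinarith
  · left
    have h1 := not_le.mp h1
    have hB : (a.length : ℝ) * (mx ^ 2 / 8) ≤ (a.length : ℝ) * ((mx - mn) ^ 2 / 2) :=
      mul_le_mul_of_nonneg_left (by nlinarith) hL.le
    nlinarith

/-- on good paths the sum of the squares is controlled by the least entry -/
theorem deficit_ok (a : List ℝ) (mn mx : ℝ) (hhi : ∀ x ∈ a, x ≤ mx) (h0 : ∀ x ∈ a, 0 ≤ x)
    (h : mx ≤ 2 * mn) : sq2 a ≤ 4 * (a.length : ℝ) * mn ^ 2 := by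
  have hsq := sq2_le_len_mul a (2 * mn) h0 (fun x hx => (hhi x hx).trans h)
  nlinarith

/-- combined form: `ok` is any real number in `{0, 1}`-style with `ok = 1` on good paths -/
theorem deficit_combined (a : List ℝ) (mn mx T ok : ℝ) (hmn : mn ∈ a) (hmx : mx ∈ a)
    (hlo : ∀ x ∈ a, mn ≤ x) (hhi : ∀ x ∈ a, x ≤ mx) (h0 : 0 ≤ mn) (hT : |T| ≤ a.sum)
    (hok0 : 0 ≤ ok)
    (hok : 0 < mn → mx ≤ 2 * mn → a.sum - |T| ≤ mn / 4 → ok = 1) :
    (1 / 16 : ℝ) * (sq2 a - 4 * (a.length : ℝ) * mn ^ 2 * ok) ≤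
      (a.length : ℝ) * sq2 a - T ^ 2 := by
  have hL : 0 ≤ (a.length : ℝ) := by positivity
  rcases deficit_pointwise a mn mx T hmn hmx hlo hhi h0 hT with h | ⟨h1, h2, h3⟩
  · have : 0 ≤ 4 * (a.length : ℝ) * mn ^ 2 * ok := by positivity
    linarith
  · rw [hok h1 h2 h3]
    have hd := deficit_ok a mn mx hhi (fun x hx => h0.trans (hlo x hx)) h2
    have hcs := cs_list a
    have hTS : T ^ 2 ≤ a.sum ^ 2 := by
      rw [← sq_abs T]; nlinarith [abs_nonneg T]
    linarith

end Vale.Agent.P125.A52
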