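import Vale.Agent.P125.Dich.ApiB1
import Vale.Agent.P125.Dich.ApiB2
import Vale.Agent.P125.Dich.ApiB3

set_option linter.unusedSectionVars false
set_option linter.unusedVariables false

/-!
# P125 (alpha): the iid step

A stationary path of length `a + b` is split at the state `z` reached after `a` steps.  Given `z`,
the reversed first part and the second part are independent trajectories started at `z`.
-/

namespace Vale.Agent.P125.A52

open Vale.Agent.P125.Dich
open scoped BigOperators

variable {S M : Type} [Fintype S] [Fintype M] (C : MChain S M)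

/-- the reversal of a list of marks -/
def rv (l : List M) : List M := (l.map C.inv).reverse

lemma rv_rv (l : List M) : rv C (rv C l) = l := by
  unfold rv
  rw [List.map_reverse, List.reverse_reverse, List.map_map]
  have : (C.inv ∘ C.inv) = id := by
    funext m
    exact C.inv_inv m
  rw [this, List.map_id]

lemma rv_length (l : List M) : (rv C l).length = l.length := by
  simp [rv]

lemma rv_append (l l' : List M) : rv C (l ++ l') = rv C l' ++ rv C l := by
  simp [rv]

/-- the mean of `F` over the trajectories of length `a` started at `z` -/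
def mean (a : ℕ) (F : List M → ℝ) (z : S) : ℝ := C.valT a (fun l _ => F l) z

/-- splitting a stationary path at the state reached after `a` steps -/
theorem E_split_rev (a b : ℕ) (F H : List M → ℝ) :
    C.E (a + b) (fun l => F (rv C (l.take a)) * H (l.drop a)) =
      ∑ z, C.μ z * (mean C a F z * mean C b H z) := by
  unfold MChain.E
  have h1 : ∀ x, C.valT (a + b) (fun l _ => F (rv C (l.take a)) * H (l.drop a)) x
      = C.valT a (fun l z => F (rv C l) * mean C b H z) x := by
    intro x
    rw [valT_append]
    apply valT_congr
    intro l z hl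
    have h2 : C.valT b (fun l2 _ => F (rv C ((l ++ l2).take a)) * H ((l ++ l2).drop a)) z
        = C.valT b (fun l2 _ => F (rv C l) * H l2) z := by
      apply valT_congr
      intro l2 w _
      rw [← hl, List.take_left, List.drop_left]
    rw [h2, valT_const_mul]
    rfl
  simp only [h1]
  have h3 := rev_identity C a (fun l => F (rv C l)) (fun _ => 1) (fun z => mean C b H z)
  simp only [mul_one] at h3
  rw [h3]
  refine Finset.sum_congr rfl fun z _ => ?_
  have h4 : C.valT a (fun l _ => F (rv C ((l.map C.inv).reverse))) z = mean C a F z := by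
    unfold mean
    apply valT_congr
    intro l w _
    have := rv_rv C l
    unfold rv at this ⊢
    rw [this]
  rw [h4]
  ring

/-- the two halves are iid given the middle state: the product has nonnegative mean -/
theorem E_iid_nonneg (m : ℕ) (φ : List M → ℝ) :
    0 ≤ C.E (m + m) (fun l => φ (rv C (l.take m)) * φ (l.drop m)) := by
  rw [E_split_rev]
  refine Finset.sum_nonneg fun z _ => mul_nonneg (C.μ_nonneg z) (mul_self_nonneg _)

/-- a functional that is odd under reversal has nonpositive correlation on the two halves -/
theorem E_iid_antisymm (m : ℕ) (φ : List M → ℝ) (hφ : ∀ l, φ (rv C l) = - φ l) :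
    C.E (m + m) (fun l => φ (l.take m) * φ (l.drop m)) ≤ 0 := by
  have h := E_iid_nonneg C m φ
  have h2 : C.E (m + m) (fun l => φ (rv C (l.take m)) * φ (l.drop m))
      = - C.E (m + m) (fun l => φ (l.take m) * φ (l.drop m)) := by
    have : (fun l : List M => φ (rv C (l.take m)) * φ (l.drop m))
        = fun l => (-1 : ℝ) * (φ (l.take m) * φ (l.drop m)) := by
      funext l
      rw [hφ]
      ring
    rw [this, E_const_mul]
    ring
  rw [h2] at h
  linarith

/-- the product of a functional on the two halves is at most its second moment -/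
theorem E_prod_le (m : ℕ) (ν : List M → ℝ) :
    C.E (m + m) (fun l => ν (l.take m) * ν (l.drop m)) ≤ C.E m (fun l => ν l ^ 2) := by
  have h1 : C.E (m + m) (fun l => ν (l.take m) * ν (l.drop m))
      ≤ C.E (m + m) (fun l => (1 / 2 : ℝ) * ν (l.take m) ^ 2 + (1 / 2 : ℝ) * ν (l.drop m) ^ 2) := by
    refine E_mono C _ _ _ fun l _ => ?_
    nlinarith [sq_nonneg (ν (l.take m) - ν (l.drop m))]
  rw [E_add, E_const_mul, E_const_mul, E_take C m m (fun l => ν l ^ 2),
    E_drop C m m (fun l => ν l ^ 2)] at h1
  linarith

/-- The form used in the potential recursion.  `ν` is even and `σ = ± 1` is odd under reversal wherever `ν` does not vanish: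
the event that the two halves have the same sign carries at most half of the mass of
`ν (first half) * ν (second half)`. -/
theorem E_same_sign_le (m : ℕ) (ν σ : List M → ℝ) (hν : ∀ l, ν (rv C l) = ν l)
    (hσ : ∀ l, ν l ≠ 0 → σ (rv C l) = - σ l) (hσ1 : ∀ l, σ l = 1 ∨ σ l = -1) :
    C.E (m + m) (fun l => ν (l.take m) * ν (l.drop m) *
        (if σ (l.take m) = σ (l.drop m) then 1 else 0))
      ≤ (1 / 2 : ℝ) * C.E (m + m) (fun l => ν (l.take m) * ν (l.drop m)) := by
  have h := E_iid_antisymm C m (fun l => ν l * σ l) (fun l => by
    by_cases h0 : ν l = 0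
    · simp only [hν, h0, zero_mul, neg_zero]
    · simp only [hν, hσ l h0]
      ring)
  have h2 : (fun l : List M => ν (l.take m) * ν (l.drop m) *
        (if σ (l.take m) = σ (l.drop m) then (1 : ℝ) else 0))
      = fun l => (1 / 2 : ℝ) * (ν (l.take m) * ν (l.drop m))
          + (1 / 2 : ℝ) * (ν (l.take m) * σ (l.take m) * (ν (l.drop m) * σ (l.drop m))) := by
    funext l
    rcases hσ1 (l.take m) with h1 | h1 <;> rcases hσ1 (l.drop m) with h3 | h3 <;>
      rw [h1, h3] <;> norm_num <;> ring
  rw [h2, E_add, E_const_mul, E_const_mul]
  linarith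

end Vale.Agent.P125.A52
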