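import Vale.Agent.P125.A52.Alt

/-!
# P125 (alpha) : windows of edges, common top and bottom sets, the pointwise potential inequality
-/

namespace Vale.Agent.P125.A52

open Finset

/-- least entry of a list of reals (`0` for the empty list) -/
noncomputable def mnL : List ℝ → ℝ
  | [] => 0
  | [x] => x
  | x :: y :: l => min x (mnL (y :: l))

/-- largest entry of a list of reals (`0` for the empty list) -/
noncomputable def mxL : List ℝ → ℝ
  | [] => 0
  | [x] => x
  | x :: y :: l => max x (mxL (y :: l))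

theorem mnL_le : ∀ (l : List ℝ) (x : ℝ), x ∈ l → mnL l ≤ x
  | [], x, h => absurd h (List.not_mem_nil)
  | [y], x, h => by
      rw [List.mem_singleton] at h
      rw [h]
      exact le_refl _
  | y :: z :: l, x, h => by
      rcases List.mem_cons.1 h with rfl | h
      · exact min_le_left _ _
      · exact (min_le_right _ _).trans (mnL_le (z :: l) x h)

theorem mnL_mem : ∀ (l : List ℝ), l ≠ [] → mnL l ∈ l
  | [], h => absurd rfl h
  | [y], _ => List.mem_singleton.2 rfl
  | y :: z :: l, _ => by
      have ih := mnL_mem (z :: l) (List.cons_ne_nil _ _)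
      show min y (mnL (z :: l)) ∈ y :: z :: l
      rcases min_choice y (mnL (z :: l)) with h | h
      · rw [h]; exact List.mem_cons_self
      · rw [h]; exact List.mem_cons_of_mem _ ih

theorem le_mxL : ∀ (l : List ℝ) (x : ℝ), x ∈ l → x ≤ mxL l
  | [], x, h => absurd h (List.not_mem_nil)
  | [y], x, h => by
      rw [List.mem_singleton] at h
      rw [h]
      exact le_refl _
  | y :: z :: l, x, h => by
      rcases List.mem_cons.1 h with rfl | h
      · exact le_max_left _ _
      · exact (le_mxL (z :: l) x h).trans (le_max_right _ _)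

theorem mxL_mem : ∀ (l : List ℝ), l ≠ [] → mxL l ∈ l
  | [], h => absurd rfl h
  | [y], _ => List.mem_singleton.2 rfl
  | y :: z :: l, _ => by
      have ih := mxL_mem (z :: l) (List.cons_ne_nil _ _)
      show max y (mxL (z :: l)) ∈ y :: z :: l
      rcases max_choice y (mxL (z :: l)) with h | h
      · rw [h]; exact List.mem_cons_self
      · rw [h]; exact List.mem_cons_of_mem _ ih

/-- the least entry decreases when the list grows -/
theorem mnL_anti {l l' : List ℝ} (hl : l ≠ []) (h : ∀ x ∈ l, x ∈ l') : mnL l' ≤ mnL l :=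
  mnL_le l' _ (h _ (mnL_mem l hl))

theorem mxL_mono {l l' : List ℝ} (hl : l ≠ []) (h : ∀ x ∈ l, x ∈ l') : mxL l ≤ mxL l' :=
  le_mxL l' _ (h _ (mxL_mem l hl))

theorem mnL_congr {l l' : List ℝ} (h : ∀ x, x ∈ l ↔ x ∈ l') : mnL l = mnL l' := by
  by_cases hl : l = []
  · subst hl
    have : l' = [] := by
      apply List.eq_nil_iff_forall_not_mem.2
      intro x hx
      exact absurd ((h x).2 hx) (List.not_mem_nil)
    rw [this]
  · have hl' : l' ≠ [] := by
      intro e
      subst e
      apply hl
      apply List.eq_nil_iff_forall_not_mem.2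
      intro x hx
      exact absurd ((h x).1 hx) (List.not_mem_nil)
    exact le_antisymm (mnL_anti hl' (fun x hx => (h x).2 hx)) (mnL_anti hl (fun x hx => (h x).1 hx))

theorem mxL_congr {l l' : List ℝ} (h : ∀ x, x ∈ l ↔ x ∈ l') : mxL l = mxL l' := by
  by_cases hl : l = []
  · subst hl
    have : l' = [] := by
      apply List.eq_nil_iff_forall_not_mem.2
      intro x hx
      exact absurd ((h x).2 hx) (List.not_mem_nil)
    rw [this]
  · have hl' : l' ≠ [] := by
      intro e
      subst e
      apply hl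
      apply List.eq_nil_iff_forall_not_mem.2
      intro x hx
      exact absurd ((h x).1 hx) (List.not_mem_nil)
    exact le_antisymm (mxL_mono hl (fun x hx => (h x).1 hx)) (mxL_mono hl' (fun x hx => (h x).2 hx))

section window

variable {E κ : Type*} [Fintype κ] [LinearOrder κ] (g : E → κ → ℝ) (N : E → ℝ)

/-- least norm in the window -/
noncomputable def mnW (w : List E) : ℝ := mnL (w.map N)

/-- largest norm in the window -/
noncomputable def mxW (w : List E) : ℝ := mxL (w.map N)

/-- deficiency of the position `k` for the sign `+` -/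
noncomputable def dA (w : List E) (k : κ) : ℝ := (w.map (fun e => N e - g e k)).sum

/-- deficiency of the position `k` for the sign `-` -/
noncomputable def dB (w : List E) (k : κ) : ℝ := (w.map (fun e => N e + g e k)).sum

/-- common top set of the window -/
noncomputable def Aset (w : List E) : Finset κ :=
  Finset.univ.filter (fun k => dA g N w k ≤ mnW N w / 4)

/-- common bottom set of the window -/
noncomputable def Bset (w : List E) : Finset κ :=
  Finset.univ.filter (fun k => dB g N w k ≤ mnW N w / 4)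

/-- the window is almost straight with comparable norms -/
def okW (w : List E) : Prop :=
  0 < mnW N w ∧ mxW N w ≤ 2 * mnW N w ∧ (Aset g N w ∪ Bset g N w).Nonempty

/-- alternation count of the window -/
noncomputable def cW (w : List E) : ℕ := altLen (Aset g N w) (Bset g N w)

/-- first letter of the window -/
noncomputable def sgW (w : List E) : ℝ := ((altSig (Aset g N w) (Bset g N w) : ℤ) : ℝ)

open Classical in
/-- weight of the window -/
noncomputable def wt (w : List E) : ℝ := if okW g N w then mnW N w else 0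

variable {g N}

theorem sgW_eq_or (w : List E) : sgW g N w = 1 ∨ sgW g N w = -1 := by
  unfold sgW
  rcases altSig_eq_or (Aset g N w) (Bset g N w) with h | h
  · left; rw [h]; norm_num
  · right; rw [h]; norm_num

theorem wt_nonneg (w : List E) : 0 ≤ wt g N w := by
  unfold wt
  split_ifs with h
  · exact h.1.le
  · exact le_refl _

theorem dA_append (w1 w2 : List E) (k : κ) : dA g N (w1 ++ w2) k = dA g N w1 k + dA g N w2 k := by
  unfold dA
  rw [List.map_append, List.sum_append]

theorem dB_append (w1 w2 : List E) (k : κ) : dB g N (w1 ++ w2) k = dB g N w1 k + dB g N w2 k := by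
  unfold dB
  rw [List.map_append, List.sum_append]

theorem dA_nonneg (hg : ∀ e k, |g e k| ≤ N e) (w : List E) (k : κ) : 0 ≤ dA g N w k := by
  unfold dA
  apply List.sum_nonneg
  intro x hx
  obtain ⟨e, _, rfl⟩ := List.mem_map.1 hx
  have := (abs_le.1 (hg e k)).2
  linarith

theorem dB_nonneg (hg : ∀ e k, |g e k| ≤ N e) (w : List E) (k : κ) : 0 ≤ dB g N w k := by
  unfold dB
  apply List.sum_nonneg
  intro x hx
  obtain ⟨e, _, rfl⟩ := List.mem_map.1 hx
  have := (abs_le.1 (hg e k)).1
  linarith

theorem dA_add_dB (w : List E) (k : κ) : dA g N w k + dB g N w k = 2 * (w.map N).sum := by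
  unfold dA dB
  induction w with
  | nil => simp
  | cons e w ih =>
    simp only [List.map_cons, List.sum_cons]
    linarith

theorem mnW_le_sum (hN : ∀ e, 0 ≤ N e) (w : List E) (hw : w ≠ []) : mnW N w ≤ (w.map N).sum := by
  unfold mnW
  have hne : w.map N ≠ [] := by simpa using hw
  have hm := mnL_mem (w.map N) hne
  apply List.single_le_sum _ _ hm
  intro x hx
  obtain ⟨e, _, rfl⟩ := List.mem_map.1 hx
  exact hN e

/-- (b) top and bottom sets are disjoint -/
theorem disjoint_AB (hN : ∀ e, 0 ≤ N e) (w : List E) (hw : w ≠ []) (hpos : 0 < mnW N w) :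
    Disjoint (Aset g N w) (Bset g N w) := by
  rw [Finset.disjoint_left]
  intro k hA hB
  have h1 : dA g N w k ≤ mnW N w / 4 := (Finset.mem_filter.1 hA).2
  have h2 : dB g N w k ≤ mnW N w / 4 := (Finset.mem_filter.1 hB).2
  have h3 := dA_add_dB (g := g) (N := N) w k
  have h4 := mnW_le_sum hN w hw
  linarith

theorem mnW_append_le_left (w1 w2 : List E) (h1 : w1 ≠ []) : mnW N (w1 ++ w2) ≤ mnW N w1 := by
  unfold mnW
  apply mnL_anti (by simpa using h1)
  intro x hx
  rw [List.map_append]
  exact List.mem_append_left _ hx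

theorem mnW_append_le_right (w1 w2 : List E) (h2 : w2 ≠ []) : mnW N (w1 ++ w2) ≤ mnW N w2 := by
  unfold mnW
  apply mnL_anti (by simpa using h2)
  intro x hx
  rw [List.map_append]
  exact List.mem_append_right _ hx

theorem mxW_le_append_left (w1 w2 : List E) (h1 : w1 ≠ []) : mxW N w1 ≤ mxW N (w1 ++ w2) := by
  unfold mxW
  apply mxL_mono (by simpa using h1)
  intro x hx
  rw [List.map_append]
  exact List.mem_append_left _ hx

theorem mxW_le_append_right (w1 w2 : List E) (h2 : w2 ≠ []) : mxW N w2 ≤ mxW N (w1 ++ w2) := by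
  unfold mxW
  apply mxL_mono (by simpa using h2)
  intro x hx
  rw [List.map_append]
  exact List.mem_append_right _ hx

/-- (a) the top set of a window is contained in the top sets of its two parts -/
theorem Aset_append_left (hg : ∀ e k, |g e k| ≤ N e) (w1 w2 : List E) (h1 : w1 ≠ []) :
    Aset g N (w1 ++ w2) ⊆ Aset g N w1 := by
  intro k hk
  have h := (Finset.mem_filter.1 hk).2
  rw [dA_append] at h
  have h2 := dA_nonneg hg w2 k
  have h3 := mnW_append_le_left (N := N) w1 w2 h1
  exact Finset.mem_filter.2 ⟨Finset.mem_univ _, by linarith⟩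

theorem Aset_append_right (hg : ∀ e k, |g e k| ≤ N e) (w1 w2 : List E) (h2 : w2 ≠ []) :
    Aset g N (w1 ++ w2) ⊆ Aset g N w2 := by
  intro k hk
  have h := (Finset.mem_filter.1 hk).2
  rw [dA_append] at h
  have h1 := dA_nonneg hg w1 k
  have h3 := mnW_append_le_right (N := N) w1 w2 h2
  exact Finset.mem_filter.2 ⟨Finset.mem_univ _, by linarith⟩

theorem Bset_append_left (hg : ∀ e k, |g e k| ≤ N e) (w1 w2 : List E) (h1 : w1 ≠ []) :
    Bset g N (w1 ++ w2) ⊆ Bset g N w1 := by
  intro k hk
  have h := (Finset.mem_filter.1 hk).2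
  rw [dB_append] at h
  have h2 := dB_nonneg hg w2 k
  have h3 := mnW_append_le_left (N := N) w1 w2 h1
  exact Finset.mem_filter.2 ⟨Finset.mem_univ _, by linarith⟩

theorem Bset_append_right (hg : ∀ e k, |g e k| ≤ N e) (w1 w2 : List E) (h2 : w2 ≠ []) :
    Bset g N (w1 ++ w2) ⊆ Bset g N w2 := by
  intro k hk
  have h := (Finset.mem_filter.1 hk).2
  rw [dB_append] at h
  have h1 := dB_nonneg hg w1 k
  have h3 := mnW_append_le_right (N := N) w1 w2 h2
  exact Finset.mem_filter.2 ⟨Finset.mem_univ _, by linarith⟩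

theorem okW_left (hg : ∀ e k, |g e k| ≤ N e) (w1 w2 : List E) (h1 : w1 ≠ [])
    (h : okW g N (w1 ++ w2)) : okW g N w1 := by
  have a := mnW_append_le_left (N := N) w1 w2 h1
  have b := mxW_le_append_left (N := N) w1 w2 h1
  refine ⟨lt_of_lt_of_le h.1 a, by linarith [h.2.1], ?_⟩
  exact h.2.2.mono (Finset.union_subset_union (Aset_append_left hg w1 w2 h1)
    (Bset_append_left hg w1 w2 h1))

theorem okW_right (hg : ∀ e k, |g e k| ≤ N e) (w1 w2 : List E) (h2 : w2 ≠ [])
    (h : okW g N (w1 ++ w2)) : okW g N w2 := by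
  have a := mnW_append_le_right (N := N) w1 w2 h2
  have b := mxW_le_append_right (N := N) w1 w2 h2
  refine ⟨lt_of_lt_of_le h.1 a, by linarith [h.2.1], ?_⟩
  exact h.2.2.mono (Finset.union_subset_union (Aset_append_right hg w1 w2 h2)
    (Bset_append_right hg w1 w2 h2))

theorem wt_append_le_left (hg : ∀ e k, |g e k| ≤ N e) (w1 w2 : List E) (h1 : w1 ≠ []) :
    wt g N (w1 ++ w2) ≤ wt g N w1 := by
  by_cases h : okW g N (w1 ++ w2)
  · have h' := okW_left hg w1 w2 h1 h
    unfold wt
    rw [if_pos h, if_pos h']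
    exact mnW_append_le_left w1 w2 h1
  · have : wt g N (w1 ++ w2) = 0 := by unfold wt; rw [if_neg h]
    rw [this]
    exact wt_nonneg w1

theorem wt_append_le_right (hg : ∀ e k, |g e k| ≤ N e) (w1 w2 : List E) (h2 : w2 ≠ []) :
    wt g N (w1 ++ w2) ≤ wt g N w2 := by
  by_cases h : okW g N (w1 ++ w2)
  · have h' := okW_right hg w1 w2 h2 h
    unfold wt
    rw [if_pos h, if_pos h']
    exact mnW_append_le_right w1 w2 h2
  · have : wt g N (w1 ++ w2) = 0 := by unfold wt; rw [if_neg h]
    rw [this]
    exact wt_nonneg w2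

/-- THE POINTWISE POTENTIAL INEQUALITY -/
theorem window_ineq (hg : ∀ e k, |g e k| ≤ N e) (w1 w2 : List E) (h1 : w1 ≠ []) (h2 : w2 ≠ []) :
    wt g N (w1 ++ w2) ^ 2 * (cW g N (w1 ++ w2) : ℝ) ≤
      (wt g N w1 ^ 2 * (cW g N w1 : ℝ) + wt g N w2 ^ 2 * (cW g N w2 : ℝ)) / 2
        - wt g N (w1 ++ w2) ^ 2 / 2
        + 1 / 4 * (wt g N w1 * wt g N w2 * (1 + sgW g N w1 * sgW g N w2)) := by
  have hs : 0 ≤ 1 + sgW g N w1 * sgW g N w2 := by
    rcases sgW_eq_or (g := g) (N := N) w1 with a | a <;>
      rcases sgW_eq_or (g := g) (N := N) w2 with b | b <;> rw [a, b] <;> norm_num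
  have hw1 := wt_nonneg (g := g) (N := N) w1
  have hw2 := wt_nonneg (g := g) (N := N) w2
  by_cases hok : okW g N (w1 ++ w2)
  · obtain ⟨k0, _⟩ := hok.2.2
    have hN : ∀ e, 0 ≤ N e := fun e => (abs_nonneg _).trans (hg e k0)
    have ok1 := okW_left hg w1 w2 h1 hok
    have ok2 := okW_right hg w1 w2 h2 hok
    have l1 := wt_append_le_left hg w1 w2 h1
    have l2 := wt_append_le_right hg w1 w2 h2
    have hw' := wt_nonneg (g := g) (N := N) (w1 ++ w2)
    have c1 : cW g N (w1 ++ w2) ≤ cW g N w1 :=
      altLen_mono (Aset_append_left hg w1 w2 h1) (Bset_append_left hg w1 w2 h1)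
    have c2 : cW g N (w1 ++ w2) ≤ cW g N w2 :=
      altLen_mono (Aset_append_right hg w1 w2 h2) (Bset_append_right hg w1 w2 h2)
    set μ := wt g N (w1 ++ w2) with hμ
    set μ1 := wt g N w1 with hμ1
    set μ2 := wt g N w2 with hμ2
    have q1 : μ ^ 2 ≤ μ1 ^ 2 := pow_le_pow_left₀ hw' l1 2
    have q2 : μ ^ 2 ≤ μ2 ^ 2 := pow_le_pow_left₀ hw' l2 2
    have q3 : μ ^ 2 ≤ μ1 * μ2 := by
      rw [sq]
      exact mul_le_mul l1 l2 hw' hw1
    have hc0 : (0 : ℝ) ≤ (cW g N (w1 ++ w2) : ℝ) := Nat.cast_nonneg _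
    have hc1 : (0 : ℝ) ≤ (cW g N w1 : ℝ) := Nat.cast_nonneg _
    have hc2 : (0 : ℝ) ≤ (cW g N w2 : ℝ) := Nat.cast_nonneg _
    by_cases heq : cW g N (w1 ++ w2) = cW g N w1 ∧ cW g N (w1 ++ w2) = cW g N w2
    · have s1 : altSig (Aset g N (w1 ++ w2)) (Bset g N (w1 ++ w2)) =
          altSig (Aset g N w1) (Bset g N w1) :=
        altSig_eq_of_altLen_eq (Aset_append_left hg w1 w2 h1) (Bset_append_left hg w1 w2 h1)
          (disjoint_AB hN w1 h1 ok1.1) hok.2.2 heq.1
      have s2 : altSig (Aset g N (w1 ++ w2)) (Bset g N (w1 ++ w2)) =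
          altSig (Aset g N w2) (Bset g N w2) :=
        altSig_eq_of_altLen_eq (Aset_append_right hg w1 w2 h2) (Bset_append_right hg w1 w2 h2)
          (disjoint_AB hN w2 h2 ok2.1) hok.2.2 heq.2
      have s3 : sgW g N w1 = sgW g N w2 := by
        unfold sgW
        rw [← s1, ← s2]
      have s4 : sgW g N w1 * sgW g N w2 = 1 := by
        rw [s3]
        rcases sgW_eq_or (g := g) (N := N) w2 with b | b <;> rw [b] <;> norm_num
      rw [s4, ← heq.1, ← heq.2]
      have e1 := mul_le_mul_of_nonneg_right q1 hc0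
      have e2 := mul_le_mul_of_nonneg_right q2 hc0
      linarith
    · have hsum : 2 * cW g N (w1 ++ w2) + 1 ≤ cW g N w1 + cW g N w2 := by
        by_contra hcon
        apply heq
        constructor <;> omega
      have hsumR : 2 * (cW g N (w1 ++ w2) : ℝ) + 1 ≤ (cW g N w1 : ℝ) + (cW g N w2 : ℝ) := by
        exact_mod_cast hsum
      have e1 := mul_le_mul_of_nonneg_right q1 hc1
      have e2 := mul_le_mul_of_nonneg_right q2 hc2
      have e3 : 0 ≤ μ1 * μ2 * (1 + sgW g N w1 * sgW g N w2) := mul_nonneg (mul_nonneg hw1 hw2) hs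
      have e4 := mul_le_mul_of_nonneg_left hsumR (sq_nonneg μ)
      linarith
  · have h0 : wt g N (w1 ++ w2) = 0 := by unfold wt; rw [if_neg hok]
    rw [h0]
    have e3 : 0 ≤ wt g N w1 * wt g N w2 * (1 + sgW g N w1 * sgW g N w2) :=
      mul_nonneg (mul_nonneg hw1 hw2) hs
    have e1 : 0 ≤ wt g N w1 ^ 2 * (cW g N w1 : ℝ) := mul_nonneg (sq_nonneg _) (Nat.cast_nonneg _)
    have e2 : 0 ≤ wt g N w2 ^ 2 * (cW g N w2 : ℝ) := mul_nonneg (sq_nonneg _) (Nat.cast_nonneg _)
    simp only [ne_eq, OfNat.ofNat_ne_zero, not_false_eq_true, zero_pow, zero_mul, zero_div,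
      sub_zero]
    linarith

/-! ### reversal -/

variable (inv : E → E)

theorem mnW_rev (hNi : ∀ e, N (inv e) = N e) (w : List E) :
    mnW N ((w.map inv).reverse) = mnW N w := by
  unfold mnW
  apply mnL_congr
  intro x
  simp only [List.map_reverse, List.mem_reverse, List.map_map, List.mem_map, Function.comp]
  constructor
  · rintro ⟨e, he, rfl⟩
    exact ⟨e, he, (hNi e).symm⟩
  · rintro ⟨e, he, rfl⟩
    exact ⟨e, he, hNi e⟩

theorem mxW_rev (hNi : ∀ e, N (inv e) = N e) (w : List E) :
    mxW N ((w.map inv).reverse) = mxW N w := by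
  unfold mxW
  apply mxL_congr
  intro x
  simp only [List.map_reverse, List.mem_reverse, List.map_map, List.mem_map, Function.comp]
  constructor
  · rintro ⟨e, he, rfl⟩
    exact ⟨e, he, (hNi e).symm⟩
  · rintro ⟨e, he, rfl⟩
    exact ⟨e, he, hNi e⟩

theorem dA_rev (hNi : ∀ e, N (inv e) = N e) (hgi : ∀ e k, g (inv e) k = - g e k) (w : List E)
    (k : κ) : dA g N ((w.map inv).reverse) k = dB g N w k := by
  unfold dA dB
  rw [List.map_reverse, List.sum_reverse, List.map_map]
  congr 1
  apply List.map_congr_left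
  intro e _
  simp only [Function.comp, hNi, hgi]
  ring

theorem dB_rev (hNi : ∀ e, N (inv e) = N e) (hgi : ∀ e k, g (inv e) k = - g e k) (w : List E)
    (k : κ) : dB g N ((w.map inv).reverse) k = dA g N w k := by
  unfold dA dB
  rw [List.map_reverse, List.sum_reverse, List.map_map]
  congr 1
  apply List.map_congr_left
  intro e _
  simp only [Function.comp, hNi, hgi]
  ring

theorem Aset_rev (hNi : ∀ e, N (inv e) = N e) (hgi : ∀ e k, g (inv e) k = - g e k) (w : List E) :
    Aset g N ((w.map inv).reverse) = Bset g N w := by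
  unfold Aset Bset
  ext k
  simp only [Finset.mem_filter, Finset.mem_univ, true_and]
  rw [dA_rev inv hNi hgi, mnW_rev inv hNi]

theorem Bset_rev (hNi : ∀ e, N (inv e) = N e) (hgi : ∀ e k, g (inv e) k = - g e k) (w : List E) :
    Bset g N ((w.map inv).reverse) = Aset g N w := by
  unfold Aset Bset
  ext k
  simp only [Finset.mem_filter, Finset.mem_univ, true_and]
  rw [dB_rev inv hNi hgi, mnW_rev inv hNi]

theorem okW_rev (hNi : ∀ e, N (inv e) = N e) (hgi : ∀ e k, g (inv e) k = - g e k) (w : List E) :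
    okW g N ((w.map inv).reverse) ↔ okW g N w := by
  unfold okW
  rw [mnW_rev inv hNi, mxW_rev inv hNi, Aset_rev inv hNi hgi, Bset_rev inv hNi hgi,
    Finset.union_comm]

/-- (c) the weight is invariant under reversal -/
theorem wt_rev (hNi : ∀ e, N (inv e) = N e) (hgi : ∀ e k, g (inv e) k = - g e k) (w : List E) :
    wt g N ((w.map inv).reverse) = wt g N w := by
  unfold wt
  by_cases h : okW g N w
  · rw [if_pos h, if_pos ((okW_rev inv hNi hgi w).2 h), mnW_rev inv hNi]
  · rw [if_neg h, if_neg (fun h' => h ((okW_rev inv hNi hgi w).1 h'))]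

/-- (c) the alternation count is invariant under reversal -/
theorem cW_rev (hNi : ∀ e, N (inv e) = N e) (hgi : ∀ e k, g (inv e) k = - g e k) (w : List E) :
    cW g N ((w.map inv).reverse) = cW g N w := by
  unfold cW
  rw [Aset_rev inv hNi hgi, Bset_rev inv hNi hgi, altLen_swap]

/-- (c) weight times first letter is odd under reversal -/
theorem wt_mul_sgW_rev (hg : ∀ e k, |g e k| ≤ N e) (hNi : ∀ e, N (inv e) = N e)
    (hgi : ∀ e k, g (inv e) k = - g e k) (w : List E) :
    wt g N ((w.map inv).reverse) * sgW g N ((w.map inv).reverse) = - (wt g N w * sgW g N w) := by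
  rw [wt_rev inv hNi hgi]
  by_cases h : okW g N w
  · obtain ⟨k0, _⟩ := h.2.2
    have hN : ∀ e, 0 ≤ N e := fun e => (abs_nonneg _).trans (hg e k0)
    have hw : w ≠ [] := by
      intro e
      subst e
      have := h.1
      simp [mnW, mnL] at this
    have hs : sgW g N ((w.map inv).reverse) = - sgW g N w := by
      unfold sgW
      rw [Aset_rev inv hNi hgi, Bset_rev inv hNi hgi,
        altSig_swap (disjoint_AB hN w hw h.1) h.2.2]
      push_cast
      ring
    rw [hs]
    ring
  · have : wt g N w = 0 := by unfold wt; rw [if_neg h]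
    rw [this]
    ring

end window

end Vale.Agent.P125.A52
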