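import Vale.Agent.P125.A52.Norms
import Vale.Agent.P125.A52.Window
import Vale.Agent.P125.A52.AltVar
import Vale.Agent.P125.A52.Iid
import Vale.Agent.P125.A52.Scalar
import Vale.Agent.P125.A52.Deficit
import Vale.Agent.P125.Char.Conv_A

set_option linter.unusedSectionVars false
set_option linter.unusedVariables false

/-!
# P125 (alpha): the inequality (BV) for marked reversible chains

Glue of the window facts, the iid step, the telescoping and the pointwise deficit inequality.
-/

namespace Vale.Agent.P125.A52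

open Vale.Agent.P125.Dich Vale.Agent.P125.Char
open scoped BigOperators

variable {S M : Type} [Fintype S] [Fintype M] (C : MChain S M) {n : ℕ} (w : M → Fin n → ℝ)

/-- profile of a mark -/
def gg (m : M) (k : Fin (n + 1)) : ℝ := pre (w m) k.val

/-- size of a mark -/
noncomputable def Nn (m : M) : ℝ := NJ n (w m)

lemma hg (m : M) (k : Fin (n + 1)) : |gg w m k| ≤ Nn w m := abs_pre_le_NJ _ k

lemma hN (m : M) : 0 ≤ Nn w m := NJ_nonneg _

lemma hNi (hw : ∀ m, w (C.inv m) = - w m) (m : M) : Nn w (C.inv m) = Nn w m := by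
  unfold Nn
  rw [hw, NJ_neg]

lemma hgi (hw : ∀ m, w (C.inv m) = - w m) (m : M) (k : Fin (n + 1)) :
    gg w (C.inv m) k = - gg w m k := by
  unfold gg
  rw [hw, pre_neg]

/-- weight of a window -/
noncomputable def W (l : List M) : ℝ := wt (gg w) (Nn w) l

/-- alternation count of a window -/
noncomputable def cc (l : List M) : ℕ := cW (gg w) (Nn w) l

/-- first letter of a window -/
noncomputable def sg (l : List M) : ℝ := sgW (gg w) (Nn w) l

lemma take_ne_nil {l : List M} {m : ℕ} (hm : 1 ≤ m) (hl : l.length = m + m) : l.take m ≠ [] := by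
  intro h
  have h1 := congrArg List.length h
  rw [List.length_take, hl] at h1
  simp at h1
  omega

lemma drop_ne_nil {l : List M} {m : ℕ} (hm : 1 ≤ m) (hl : l.length = m + m) : l.drop m ≠ [] := by
  intro h
  have h1 := congrArg List.length h
  rw [List.length_drop, hl] at h1
  simp at h1
  omega

lemma Q_anti (m : ℕ) (hm : 1 ≤ m) :
    C.E (m + m) (fun l => W w l ^ 2) ≤ C.E m (fun l => W w l ^ 2) := by
  rw [← E_take C m m (fun l => W w l ^ 2)]
  apply E_mono
  intro l hl
  have h1 := wt_append_le_left (g := gg w) (N := Nn w) (hg w) (l.take m) (l.drop m)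
    (take_ne_nil hm hl)
  rw [List.take_append_drop] at h1
  have h0 := wt_nonneg (g := gg w) (N := Nn w) l
  exact pow_le_pow_left₀ h0 h1 2

lemma rec_step (hw : ∀ m, w (C.inv m) = - w m) (m : ℕ) (hm : 1 ≤ m) :
    C.E (m + m) (fun l => W w l ^ 2 * cc w l) ≤
      C.E m (fun l => W w l ^ 2 * cc w l) - C.E (m + m) (fun l => W w l ^ 2) / 2
        + C.E m (fun l => W w l ^ 2) / 4 := by
  have hpt : ∀ l : List M, l.length = m + m → W w l ^ 2 * cc w l + (1 / 2) * W w l ^ 2 ≤
      (((1 / 2) * (W w (l.take m) ^ 2 * cc w (l.take m)) +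
        (1 / 2) * (W w (l.drop m) ^ 2 * cc w (l.drop m))) +
        (1 / 4) * (W w (l.take m) * W w (l.drop m))) +
        (1 / 4) * ((W w (l.take m) * sg w (l.take m)) * (W w (l.drop m) * sg w (l.drop m))) := by
    intro l hl
    have key := window_ineq (g := gg w) (N := Nn w) (hg w) (l.take m) (l.drop m)
      (take_ne_nil hm hl) (drop_ne_nil hm hl)
    rw [List.take_append_drop] at key
    unfold W cc sg
    linarith
  have hE := E_mono C (m + m) _ _ hpt
  rw [E_add, E_add, E_add, E_add, E_const_mul, E_const_mul, E_const_mul, E_const_mul,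
    E_const_mul, E_take C m m (fun l => W w l ^ 2 * cc w l),
    E_drop C m m (fun l => W w l ^ 2 * cc w l)] at hE
  have h3 : C.E (m + m) (fun l => (W w (l.take m) * sg w (l.take m)) *
      (W w (l.drop m) * sg w (l.drop m))) ≤ 0 :=
    E_iid_antisymm C m (fun l => W w l * sg w l)
      (fun l => wt_mul_sgW_rev C.inv (hg w) (hNi C w hw) (hgi C w hw) l)
  have h4 : C.E (m + m) (fun l => W w (l.take m) * W w (l.drop m)) ≤ C.E m (fun l => W w l ^ 2) :=
    E_prod_le C m (W w)
  linarith

lemma potential (hw : ∀ m, w (C.inv m) = - w m) (L : ℕ) :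
    ((L : ℝ) + 1) * C.E (2 ^ L) (fun l => W w l ^ 2) ≤
      4 * C.E 1 (fun l => W w l ^ 2 * cc w l) + C.E 1 (fun l => W w l ^ 2) := by
  have h := telescope (fun j => C.E (2 ^ j) (fun l => W w l ^ 2 * cc w l))
    (fun j => C.E (2 ^ j) (fun l => W w l ^ 2)) L
    (fun j => E_nonneg C _ _ (fun l _ => by positivity))
    (fun j _ => by
      have e : 2 ^ (j + 1) = 2 ^ j + 2 ^ j := by ring
      show C.E (2 ^ (j + 1)) (fun l => W w l ^ 2) ≤ C.E (2 ^ j) (fun l => W w l ^ 2)
      rw [e]
      exact Q_anti C w (2 ^ j) Nat.one_le_two_pow)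
    (fun j _ => by
      have e : 2 ^ (j + 1) = 2 ^ j + 2 ^ j := by ring
      show C.E (2 ^ (j + 1)) (fun l => W w l ^ 2 * cc w l) ≤
        C.E (2 ^ j) (fun l => W w l ^ 2 * cc w l) - C.E (2 ^ (j + 1)) (fun l => W w l ^ 2) / 2
          + C.E (2 ^ j) (fun l => W w l ^ 2) / 4
      rw [e]
      exact rec_step C w hw (2 ^ j) Nat.one_le_two_pow)
  simpa using h

/-! ### single marks -/

lemma mnW_single (m : M) : mnW (Nn w) [m] = Nn w m := rfl

lemma W_single_le (m : M) : W w [m] ^ 2 ≤ Nn w m ^ 2 := by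
  unfold W wt
  split_ifs with h
  · rw [mnW_single]
  · have := sq_nonneg (Nn w m)
    simpa using this

lemma W_cc_single (m : M) :
    W w [m] ^ 2 * cc w [m] ≤ Nn w m ^ 2 + Nn w m * N1 n (w m) := by
  have hN0 := hN w m
  have hV0 := N1_nonneg (w m)
  by_cases h : okW (gg w) (Nn w) [m]
  · have hW : W w [m] = Nn w m := by
      unfold W wt
      rw [if_pos h, mnW_single]
    have hpos : 0 < Nn w m := by
      have := h.1
      rwa [mnW_single] at this
    have hvar := altLen_var (Aset (gg w) (Nn w) [m]) (Bset (gg w) (Nn w) [m])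
      (fun k : Fin (n + 1) => k.val) (fun a b hab => hab) n
      (fun x _ => Nat.lt_succ_iff.1 x.isLt) (fun j => pre (w m) j) (3 / 4 * Nn w m)
      (by
        intro x hx
        have h1 : dA (gg w) (Nn w) [m] x ≤ mnW (Nn w) [m] / 4 := (Finset.mem_filter.1 hx).2
        rw [mnW_single] at h1
        simp only [dA, List.map_cons, List.map_nil, List.sum_cons, List.sum_nil, gg] at h1
        linarith)
      (by
        intro x hx
        have h1 : dB (gg w) (Nn w) [m] x ≤ mnW (Nn w) [m] / 4 := (Finset.mem_filter.1 hx).2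
        rw [mnW_single] at h1
        simp only [dB, List.map_cons, List.map_nil, List.sum_cons, List.sum_nil, gg] at h1
        linarith)
      h.2.2
    rw [var_pre] at hvar
    rw [hW]
    have h1 := mul_le_mul_of_nonneg_left hvar hpos.le
    have h2 := mul_nonneg hpos.le hV0
    unfold cc cW
    nlinarith [h1, h2]
  · have hW : W w [m] = 0 := by
      unfold W wt
      rw [if_neg h]
    rw [hW]
    have := mul_nonneg hN0 hV0
    have := sq_nonneg (Nn w m)
    simp only [ne_eq, OfNat.ofNat_ne_zero, not_false_eq_true, zero_pow, zero_mul]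
    linarith

/-! ### the pointwise deficit -/

lemma dA_eq (l : List M) (k : Fin (n + 1)) :
    dA (gg w) (Nn w) l k = (l.map (Nn w)).sum - pre (sm w l) k.val := by
  induction l with
  | nil => simp [dA, sm_nil, pre_zero]
  | cons m l ih =>
    unfold dA at ih ⊢
    rw [List.map_cons, List.sum_cons, ih, sm_cons, pre_add, List.map_cons, List.sum_cons]
    unfold gg
    ring

lemma dB_eq (l : List M) (k : Fin (n + 1)) :
    dB (gg w) (Nn w) l k = (l.map (Nn w)).sum + pre (sm w l) k.val := by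
  induction l with
  | nil => simp [dB, sm_nil, pre_zero]
  | cons m l ih =>
    unfold dB at ih ⊢
    rw [List.map_cons, List.sum_cons, ih, sm_cons, pre_add, List.map_cons, List.sum_cons]
    unfold gg
    ring

lemma deficit_pt (l : List M) (hne : l ≠ []) :
    (1 / 16 : ℝ) * ((l.map (fun m => Nn w m ^ 2)).sum - 4 * (l.length : ℝ) * W w l ^ 2) ≤
      (l.length : ℝ) * (l.map (fun m => Nn w m ^ 2)).sum - NJ n (sm w l) ^ 2 := by
  classical
  have hne' : l.map (Nn w) ≠ [] := by simpa using hne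
  have hT0 : 0 ≤ NJ n (sm w l) := NJ_nonneg _
  have hmn0 : 0 ≤ mnW (Nn w) l := by
    obtain ⟨m, _, hm⟩ := List.mem_map.1 (mnL_mem _ hne')
    unfold mnW
    rw [← hm]
    exact hN w m
  have key := deficit_combined (l.map (Nn w)) (mnW (Nn w) l) (mxW (Nn w) l) (NJ n (sm w l))
    (if okW (gg w) (Nn w) l then 1 else 0) (mnL_mem _ hne') (mxL_mem _ hne')
    (fun x hx => mnL_le _ x hx) (fun x hx => le_mxL _ x hx) hmn0
    (by rw [abs_of_nonneg hT0]; exact NJ_sm_le w l)
    (by split_ifs <;> norm_num)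
    (by
      intro h1 h2 h3
      rw [abs_of_nonneg hT0] at h3
      rw [if_pos]
      refine ⟨h1, h2, ?_⟩
      obtain ⟨k, hk⟩ := exists_NJ (sm w l)
      refine ⟨k, ?_⟩
      rcases le_total 0 (pre (sm w l) k.val) with hs | hs
      · rw [abs_of_nonneg hs] at hk
        apply Finset.mem_union_left
        refine Finset.mem_filter.2 ⟨Finset.mem_univ _, ?_⟩
        rw [dA_eq, ← hk]
        exact h3
      · rw [abs_of_nonpos hs] at hk
        apply Finset.mem_union_right
        refine Finset.mem_filter.2 ⟨Finset.mem_univ _, ?_⟩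
        rw [dB_eq]
        linarith)
  have e1 : sq2 (l.map (Nn w)) = (l.map (fun m => Nn w m ^ 2)).sum := by
    unfold sq2
    rw [List.map_map]
    rfl
  have e2 : mnW (Nn w) l ^ 2 * (if okW (gg w) (Nn w) l then (1 : ℝ) else 0) = W w l ^ 2 := by
    unfold W wt
    split_ifs <;> simp
  rw [e1, List.length_map, mul_assoc (4 * (l.length : ℝ)), e2] at key
  exact key

/-- **(BV)** for marked reversible chains. -/
theorem BV (hw : ∀ m, w (C.inv m) = - w m) (L : ℕ) :
    C.E (2 ^ L) (fun l => NJ n (sm w l) ^ 2) ≤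
      ((2 : ℝ) ^ L) ^ 2 * C.E 1 (fun l => NJ n (sm w l) ^ 2) -
        ((2 : ℝ) ^ L / 16) * (C.E 1 (fun l => NJ n (sm w l) ^ 2) -
          4 * (5 * C.E 1 (fun l => NJ n (sm w l) ^ 2) +
            4 * C.E 1 (fun l => NJ n (sm w l) * N1 n (sm w l))) / ((L : ℝ) + 1)) := by
  set EN2 := C.E 1 (fun l => NJ n (sm w l) ^ 2) with hEN2
  set ENV := C.E 1 (fun l => NJ n (sm w l) * N1 n (sm w l)) with hENV
  set Mr : ℝ := (2 : ℝ) ^ L with hMr
  have hMr0 : 0 < Mr := by positivity
  have hcast : ((2 ^ L : ℕ) : ℝ) = Mr := by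
    rw [hMr]
    push_cast
    rfl
  have hEN : C.E 1 (fun l => (l.map (fun m => Nn w m ^ 2)).sum) = EN2 := by
    rw [hEN2]
    apply E_congr
    intro l hl
    obtain ⟨m, rfl⟩ := List.length_eq_one_iff.1 hl
    rw [sm_single]
    simp [Nn]
  have h1 : C.E (2 ^ L) (fun l => NJ n (sm w l) ^ 2) ≤
      C.E (2 ^ L) (fun l => (Mr - 1 / 16) * (l.map (fun m => Nn w m ^ 2)).sum
        + (Mr / 4) * W w l ^ 2) := by
    apply E_mono
    intro l hl
    have hne : l ≠ [] := by
      intro h
      rw [h] at hl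
      have : 0 < 2 ^ L := by positivity
      simp at hl
      omega
    have := deficit_pt w l hne
    rw [hl, hcast] at this
    linarith
  rw [E_add, E_const_mul, E_const_mul, E_sum_marks, hcast, hEN] at h1
  have h2 := potential C w hw L
  have h3 : C.E 1 (fun l => W w l ^ 2 * cc w l) ≤ EN2 + ENV := by
    rw [hEN2, hENV, ← E_add]
    apply E_mono
    intro l hl
    obtain ⟨m, rfl⟩ := List.length_eq_one_iff.1 hl
    rw [sm_single]
    exact W_cc_single w m
  have h4 : C.E 1 (fun l => W w l ^ 2) ≤ EN2 := by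
    rw [hEN2]
    apply E_mono
    intro l hl
    obtain ⟨m, rfl⟩ := List.length_eq_one_iff.1 hl
    rw [sm_single]
    exact W_single_le w m
  have hL1 : (0 : ℝ) < (L : ℝ) + 1 := by positivity
  have h5 : C.E (2 ^ L) (fun l => W w l ^ 2) ≤ (5 * EN2 + 4 * ENV) / ((L : ℝ) + 1) := by
    rw [le_div_iff₀ hL1]
    linarith
  have h6 : (Mr / 4) * C.E (2 ^ L) (fun l => W w l ^ 2)
      ≤ (Mr / 4) * ((5 * EN2 + 4 * ENV) / ((L : ℝ) + 1)) :=
    mul_le_mul_of_nonneg_left h5 (by positivity)
  calc C.E (2 ^ L) (fun l => NJ n (sm w l) ^ 2)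
      ≤ (Mr - 1 / 16) * (Mr * EN2) + Mr / 4 * C.E (2 ^ L) (fun l => W w l ^ 2) := h1
    _ ≤ (Mr - 1 / 16) * (Mr * EN2) + (Mr / 4) * ((5 * EN2 + 4 * ENV) / ((L : ℝ) + 1)) := by
        linarith
    _ = Mr ^ 2 * EN2 - (Mr / 16) * (EN2 - 4 * (5 * EN2 + 4 * ENV) / ((L : ℝ) + 1)) := by
        ring

end Vale.Agent.P125.A52
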