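import Vale.Agent.P125.A52.BV
import Vale.Agent.P125.A52.Top

/-!
# P125 (alpha): the summing operators are uniformly sub-ballistic on reversible chains
-/

namespace Vale.Agent.P125.A52

open Vale.Agent.P125.Dich
open scoped BigOperators

theorem bvStatement : BVStatement NJ N1 :=
  fun _ _ _ _ C _ w hw L => BV C w hw L

/-- **(alpha)**: for every `ε > 0` there is a time `t ≥ 1` such that, uniformly in the dimension,
the chain and the function, the second moment of `NJ` of the displacement at time `t` is at most
`ε t ^ 2` times the second moment of `N1` of one step. -/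
theorem alpha : ∀ ε : ℝ, 0 < ε → ∃ t : ℕ, 1 ≤ t ∧ RA NJ N1 t ε :=
  alpha_of_BV NJ N1 (fun _ x => NJ_nonneg x) (fun _ x => NJ_le_N1 x) (fun _ => N1_zero)
    (fun _ x y => N1_add_le x y) bvStatement

end Vale.Agent.P125.A52
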