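import Vale.Agent.P125.Dich.ApiB3

set_option linter.unusedSectionVars false
set_option linter.unusedVariables false

/-!
# P125 (alpha): the two size functions on `Fin n → ℝ`

`NJ n v` is the largest absolute value of a sum of the first `k` coordinates of `v`, `0 ≤ k ≤ n`;
`N1 n v` is the sum of the absolute values of the coordinates.
-/

namespace Vale.Agent.P125.A52

open Vale.Agent.P125.Dich
open scoped BigOperators

/-- the sum of the coordinates of index `< k` -/
def pre {n : ℕ} (v : Fin n → ℝ) (k : ℕ) : ℝ := ∑ i : Fin n, if i.val < k then v i else 0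

/-- largest absolute value of a sum of the first coordinates -/
noncomputable def NJ (n : ℕ) (v : Fin n → ℝ) : ℝ :=
  Finset.univ.sup' Finset.univ_nonempty (fun k : Fin (n + 1) => |pre v k.val|)

/-- the sum of the absolute values -/
def N1 (n : ℕ) (v : Fin n → ℝ) : ℝ := ∑ i, |v i|

variable {n : ℕ}

lemma pre_add (u v : Fin n → ℝ) (k : ℕ) : pre (u + v) k = pre u k + pre v k := by
  unfold pre
  rw [← Finset.sum_add_distrib]
  refine Finset.sum_congr rfl fun i _ => ?_
  split_ifs <;> simp

lemma pre_neg (v : Fin n → ℝ) (k : ℕ) : pre (-v) k = - pre v k := by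
  unfold pre
  rw [← Finset.sum_neg_distrib]
  refine Finset.sum_congr rfl fun i _ => ?_
  split_ifs <;> simp

lemma pre_zero (k : ℕ) : pre (0 : Fin n → ℝ) k = 0 := by
  unfold pre
  apply Finset.sum_eq_zero
  intro i _
  split_ifs <;> simp

lemma pre_succ_sub (v : Fin n → ℝ) (i : Fin n) : pre v (i.val + 1) - pre v i.val = v i := by
  unfold pre
  rw [← Finset.sum_sub_distrib, Finset.sum_eq_single i]
  · simp
  · intro j _ hj
    have hj' : j.val ≠ i.val := fun h => hj (Fin.ext h)
    by_cases h1 : j.val < i.val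
    · rw [if_pos h1, if_pos (by omega)]
      ring
    · rw [if_neg h1, if_neg (by omega)]
      ring
  · intro h
    exact absurd (Finset.mem_univ i) h

lemma abs_pre_le_NJ (v : Fin n → ℝ) (k : Fin (n + 1)) : |pre v k.val| ≤ NJ n v :=
  Finset.le_sup' (fun k : Fin (n + 1) => |pre v k.val|) (Finset.mem_univ k)

lemma NJ_nonneg (v : Fin n → ℝ) : 0 ≤ NJ n v := (abs_nonneg _).trans (abs_pre_le_NJ v 0)

lemma exists_NJ (v : Fin n → ℝ) : ∃ k : Fin (n + 1), NJ n v = |pre v k.val| := by
  obtain ⟨k, _, hk⟩ := Finset.exists_mem_eq_sup' (Finset.univ_nonempty (α := Fin (n + 1)))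
    (fun k : Fin (n + 1) => |pre v k.val|)
  exact ⟨k, hk⟩

lemma NJ_neg (v : Fin n → ℝ) : NJ n (-v) = NJ n v := by
  unfold NJ
  congr 1
  funext k
  rw [pre_neg, abs_neg]

lemma NJ_zero : NJ n (0 : Fin n → ℝ) = 0 := by
  apply le_antisymm _ (NJ_nonneg _)
  unfold NJ
  apply Finset.sup'_le
  intro k _
  rw [pre_zero, abs_zero]

lemma NJ_add_le (u v : Fin n → ℝ) : NJ n (u + v) ≤ NJ n u + NJ n v := by
  unfold NJ
  apply Finset.sup'_le
  intro k _
  rw [pre_add]
  exact (abs_add_le _ _).trans (add_le_add (abs_pre_le_NJ u k) (abs_pre_le_NJ v k))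

lemma N1_nonneg (v : Fin n → ℝ) : 0 ≤ N1 n v := Finset.sum_nonneg fun _ _ => abs_nonneg _

lemma N1_zero : N1 n (0 : Fin n → ℝ) = 0 := by simp [N1]

lemma N1_add_le (u v : Fin n → ℝ) : N1 n (u + v) ≤ N1 n u + N1 n v := by
  unfold N1
  rw [← Finset.sum_add_distrib]
  exact Finset.sum_le_sum fun i _ => abs_add_le _ _

lemma NJ_le_N1 (v : Fin n → ℝ) : NJ n v ≤ N1 n v := by
  unfold NJ
  apply Finset.sup'_le
  intro k _
  unfold pre N1
  refine (Finset.abs_sum_le_sum_abs _ _).trans (Finset.sum_le_sum fun i _ => ?_)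
  split_ifs
  · exact le_refl _
  · rw [abs_zero]
    exact abs_nonneg _

/-- the total variation of the sums of the first coordinates is `N1` -/
lemma var_pre (v : Fin n → ℝ) :
    ∑ i ∈ Finset.range n, |pre v (i + 1) - pre v i| = N1 n v := by
  rw [Finset.sum_range]
  unfold N1
  refine Finset.sum_congr rfl fun i _ => ?_
  rw [pre_succ_sub]

variable {M : Type} [Fintype M]

lemma pre_sm (w : M → Fin n → ℝ) (l : List M) (k : ℕ) :
    pre (sm w l) k = (l.map (fun m => pre (w m) k)).sum := by
  induction l with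
  | nil => rw [sm_nil, pre_zero]; rfl
  | cons m l ih => rw [sm_cons, pre_add, ih]; rfl

lemma NJ_sm_le (w : M → Fin n → ℝ) (l : List M) :
    NJ n (sm w l) ≤ (l.map (fun m => NJ n (w m))).sum := by
  induction l with
  | nil => rw [sm_nil, NJ_zero]; rfl
  | cons m l ih =>
    rw [sm_cons]
    refine (NJ_add_le _ _).trans ?_
    rw [List.map_cons, List.sum_cons]
    linarith

lemma sm_single (w : M → Fin n → ℝ) (m : M) : sm w [m] = w m := by
  rw [sm_cons, sm_nil, add_zero]

end Vale.Agent.P125.A52
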